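import Mathlib
import Vale.Agent.P028h.Final

open MeasureTheory

namespace Vale.Agent.Results.P028.SparseSupports

/-- Distance from `t` to the nearest integer. -/
noncomputable def distInt (t : ℝ) : ℝ := |t - round t|

/-- Real `x` such that `‖q x - γ q‖ < ψ q` for infinitely many positive integers `q`.
The shift `γ q` is allowed to depend on `q`; a constant function `γ` gives the set of the problem. -/
def W (γ ψ : ℕ → ℝ) : Set ℝ :=
  {x : ℝ | {q : ℕ | 0 < q ∧ distInt (q * x - γ q) < ψ q}.Infinite}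

/-- The assertion of the question for all approximating functions `ψ ≥ 0` that vanish off `A`
(and for all sequences of shifts). -/
def HoldsOn (A : Set ℕ) : Prop :=
  ∀ γ ψ : ℕ → ℝ, (∀ q, 0 ≤ ψ q) → (∀ q, q ∉ A → ψ q = 0) →
    ¬ Summable (fun q : ℕ => (Nat.totient q : ℝ) / q * ψ q) →
    (volume : Measure ℝ) (W γ ψ)ᶜ = 0

theorem result :
    -- (1) a gcd-sum criterion for the support
    (∀ (A : Set ℕ) (C : ℝ),
      (∀ r ∈ A, ∀ F : Finset ℕ, (∀ q ∈ F, q ∈ A ∧ 0 < q ∧ q < r) →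
        ∑ q ∈ F, (Nat.totient q : ℝ) / q * (Nat.gcd q r : ℝ) ≤ C * r) →
      HoldsOn A) ∧
    -- (2) perfect squares, cubes, and higher powers
    (∀ k : ℕ, 2 ≤ k → HoldsOn {q : ℕ | ∃ n : ℕ, q = n ^ k}) ∧
    -- (3) integers with a bounded number of divisors
    (∀ k : ℕ, HoldsOn {q : ℕ | 0 < q ∧ q.divisors.card ≤ k}) ∧
    -- (4) arbitrary `ψ`, with extra divergence measured by the divisor function
    (∀ γ ψ : ℕ → ℝ, (∀ q, 0 ≤ ψ q) →
      (∀ K : ℝ, ∃ (t : ℕ) (F : Finset ℕ), (∀ q ∈ F, 0 < q ∧ q.divisors.card ≤ t) ∧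
        K * t < ∑ q ∈ F, (Nat.totient q : ℝ) / q * ψ q) →
      (volume : Measure ℝ) (W γ ψ)ᶜ = 0) := by
  refine ⟨?_, ?_, ?_, ?_⟩
  · intro A C hC γ ψ h0 hA hdiv
    exact P028h.crit_gcd A C hC γ ψ h0 hA hdiv
  · intro k hk γ ψ h0 hA hdiv
    exact P028h.crit_gcd _ 1 (P028h.powers_ok k hk) γ ψ h0 hA hdiv
  · intro k γ ψ h0 hA hdiv
    exact P028h.crit_gcd _ k (P028h.divisors_ok k) γ ψ h0 hA hdiv
  · intro γ ψ h0 h
    exact P028h.crit_div γ ψ h0 h

end Vale.Agent.Results.P028.SparseSupports
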